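import Mathlib
import Vale.Agent.P183.R2.H668.KW.Spec

/-!
Row A of the bound of Kleitman and Winston: few possible neighbourhoods (numerics).
-/

set_option autoImplicit false

namespace Vale.Agent.P183.R2.H538.KWA

open Finset Vale.Agent.P183.R2.H668.KW

theorem choose_bound {R j d : ℕ} {a : ℝ} (ha : 0 < a) (ha1 : a ≤ 1) (hj : j ≤ d) :
    (R.choose j : ℝ) ≤ Real.exp (a * R) * (1 / a) ^ d := by
  have h1 : a ^ j * (R.choose j : ℝ) ≤ (a + 1) ^ R := by
    rcases lt_or_ge R j with h | h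
    · rw [Nat.choose_eq_zero_of_lt h]
      simp
      positivity
    · rw [add_pow]
      have := Finset.single_le_sum (f := fun m => a ^ m * 1 ^ (R - m) * (R.choose m : ℝ))
        (s := range (R + 1)) (fun i _ => by positivity) (mem_range.2 (Nat.lt_succ_of_le h))
      simpa using this
  have h2 : (a + 1) ^ R ≤ Real.exp (a * R) := by
    calc (a + 1) ^ R ≤ (Real.exp a) ^ R := by
          apply pow_le_pow_left₀ (by positivity) (Real.add_one_le_exp a)
      _ = Real.exp (a * R) := by rw [← Real.exp_nat_mul, mul_comm]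
  have h3 : (R.choose j : ℝ) ≤ Real.exp (a * R) * (1 / a) ^ j := by
    rw [one_div, inv_pow, ← div_eq_mul_inv, le_div_iff₀ (by positivity)]
    calc (R.choose j : ℝ) * a ^ j = a ^ j * (R.choose j : ℝ) := mul_comm _ _
      _ ≤ _ := h1.trans h2
  refine h3.trans (mul_le_mul_of_nonneg_left ?_ (Real.exp_pos _).le)
  exact pow_le_pow_right₀ (by rw [le_div_iff₀ ha]; linarith) hj

theorem log_bound {t : ℝ} (ht : 1 ≤ t) :
    (2 * Real.log t ^ 3 + 1) * (1 + Real.log t) ≤ 9225 * Real.sqrt t ∧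
      Real.log t ≤ 8 * Real.sqrt t := by
  have h0 : (0 : ℝ) ≤ t := by linarith
  have h1 : Real.log t ≤ 8 * t ^ (1 / 8 : ℝ) := by
    have := Real.log_le_rpow_div h0 (show (0 : ℝ) < 1 / 8 by norm_num)
    linarith
  have h2 : 1 ≤ t ^ (1 / 8 : ℝ) := Real.one_le_rpow ht (by norm_num)
  have h3 : (t ^ (1 / 8 : ℝ)) ^ 4 = Real.sqrt t := by
    rw [Real.sqrt_eq_rpow, ← Real.rpow_natCast, ← Real.rpow_mul h0]
    norm_num
  have h4 : 0 ≤ Real.log t := Real.log_nonneg ht
  set m := t ^ (1 / 8 : ℝ) with hm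
  have h5 : Real.log t ^ 3 ≤ 512 * m ^ 3 := by
    calc Real.log t ^ 3 ≤ (8 * m) ^ 3 := pow_le_pow_left₀ h4 h1 3
      _ = 512 * m ^ 3 := by ring
  have h6 : 1 ≤ m ^ 3 := one_le_pow₀ h2
  constructor
  · calc (2 * Real.log t ^ 3 + 1) * (1 + Real.log t)
        ≤ (1025 * m ^ 3) * (9 * m) := by
          apply mul_le_mul (by linarith) (by linarith) (by linarith) (by positivity)
      _ = 9225 * m ^ 4 := by ring
      _ = _ := by rw [h3]
  · have : m ≤ m ^ 4 := le_self_pow₀ h2 (by norm_num)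
    rw [← h3]; linarith

/-- the numeric heart -/
theorem num {t δ R q d : ℕ} (ht : 2 ≤ t) (hδ : 2 ≤ δ) (hd : d = δ + 1)
    (hδt : (δ : ℝ) ^ 2 ≤ 2 * t) (hl : Real.sqrt t ≤ δ * Real.log t)
    (hR : (R : ℝ) ≤ 2 * t / δ)
    (hq : (q : ℝ) ≤ 2 * t * Real.log t / δ ^ 2 + 1) :
    ((∑ s ∈ range (q + 1), t.choose s * R.choose (d - s) : ℕ) : ℝ) ≤
      Real.exp (9300 * Real.sqrt t) := by
  have ht1 : (2 : ℝ) ≤ t := by exact_mod_cast ht
  have hδ1 : (2 : ℝ) ≤ δ := by exact_mod_cast hδ
  have hδ0 : (0 : ℝ) < δ := by linarith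
  have ht0 : (0 : ℝ) < t := by linarith
  obtain ⟨hL, -⟩ := log_bound (show (1 : ℝ) ≤ t by linarith)
  have hl0 : 0 ≤ Real.log t := Real.log_nonneg (by linarith)
  set l := Real.log t with hldef
  set r := Real.sqrt t with hrdef
  have hr2 : r ^ 2 = t := Real.sq_sqrt ht0.le
  have hr0 : 0 < r := Real.sqrt_pos.2 ht0
  set a : ℝ := δ ^ 2 / (2 * t) with ha
  have ha0 : 0 < a := by positivity
  have ha1 : a ≤ 1 := by rw [ha, div_le_one (by positivity)]; exact hδt
  -- the square root of 2 t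
  set y : ℝ := Real.sqrt (2 * t) / δ with hy
  have hs2 : Real.sqrt (2 * t) ^ 2 = 2 * t := Real.sq_sqrt (by positivity)
  have hs0 : 0 < Real.sqrt (2 * t) := Real.sqrt_pos.2 (by positivity)
  have hsr : 5 * Real.sqrt (2 * t) ≤ 8 * r := by
    have : Real.sqrt (2 * t) ≤ 8 / 5 * r := by
      rw [Real.sqrt_le_left (by positivity)]
      rw [mul_pow, hr2]; nlinarith
    linarith
  have hδs : (δ : ℝ) ≤ Real.sqrt (2 * t) := Real.le_sqrt_of_sq_le hδt
  have hy1 : 1 ≤ y := by rw [hy, le_div_iff₀ hδ0]; linarith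
  have hya : 1 / a = y ^ 2 := by
    rw [hy, ha, div_pow, hs2]
    field_simp
  have hE1 : (1 / a) ^ d ≤ Real.exp (4 * Real.sqrt (2 * t)) := by
    rw [hya, ← pow_mul]
    calc y ^ (2 * d) ≤ y ^ (4 * δ) := pow_le_pow_right₀ hy1 (by omega)
      _ ≤ (Real.exp y) ^ (4 * δ) := by
          apply pow_le_pow_left₀ (by linarith)
          linarith [Real.add_one_le_exp y]
      _ = Real.exp (4 * Real.sqrt (2 * t)) := by
          rw [← Real.exp_nat_mul]
          congr 1
          rw [hy]; push_cast; field_simp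
  have hE2 : Real.exp (a * R) ≤ Real.exp (Real.sqrt (2 * t)) := by
    apply Real.exp_le_exp.2
    calc a * R ≤ a * (2 * t / δ) := mul_le_mul_of_nonneg_left hR ha0.le
      _ = δ := by rw [ha]; field_simp
      _ ≤ _ := hδs
  set E := Real.exp (a * R) * (1 / a) ^ d with hE
  have hE3 : E ≤ Real.exp (8 * r) := by
    calc E ≤ Real.exp (Real.sqrt (2 * t)) * Real.exp (4 * Real.sqrt (2 * t)) := by
          apply mul_le_mul hE2 hE1 (by positivity) (Real.exp_pos _).le
      _ = Real.exp (5 * Real.sqrt (2 * t)) := by rw [← Real.exp_add]; congr 1; ring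
      _ ≤ _ := Real.exp_le_exp.2 hsr
  have hE0 : 0 ≤ E := by positivity
  -- the sum
  have hsum : ((∑ s ∈ range (q + 1), t.choose s * R.choose (d - s) : ℕ) : ℝ) ≤
      (q + 1) * ((t : ℝ) ^ q * E) := by
    push_cast
    calc ∑ s ∈ range (q + 1), (t.choose s : ℝ) * (R.choose (d - s) : ℝ)
        ≤ ∑ s ∈ range (q + 1), ((t : ℝ) ^ q * E) := by
          apply Finset.sum_le_sum
          intro s hs
          have hsq : s ≤ q := Nat.lt_succ_iff.1 (mem_range.1 hs)
          apply mul_le_mul _ (choose_bound ha0 ha1 (Nat.sub_le d s)) (by positivity)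
            (by positivity)
          calc (t.choose s : ℝ) ≤ (t : ℝ) ^ s := by exact_mod_cast Nat.choose_le_pow t s
            _ ≤ (t : ℝ) ^ q := pow_le_pow_right₀ (by linarith) hsq
      _ = (q + 1) * ((t : ℝ) ^ q * E) := by
          rw [Finset.sum_const, card_range, nsmul_eq_mul]; push_cast; ring
  have hq3 : (q : ℝ) ≤ 2 * l ^ 3 + 1 := by
    have h1 : (t : ℝ) ≤ δ ^ 2 * l ^ 2 := by
      calc (t : ℝ) = r ^ 2 := hr2.symm
        _ ≤ (δ * l) ^ 2 := pow_le_pow_left₀ hr0.le hl 2
        _ = _ := by ring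
    have h2 : 2 * t * l / δ ^ 2 ≤ 2 * l ^ 3 := by
      rw [div_le_iff₀ (by positivity)]
      have := mul_le_mul_of_nonneg_right h1 hl0
      nlinarith
    linarith
  have htq : (t : ℝ) ^ q = Real.exp (q * l) := by
    rw [Real.exp_nat_mul, hldef, Real.exp_log ht0]
  have hq1 : (q : ℝ) + 1 ≤ Real.exp q := Real.add_one_le_exp _
  calc ((∑ s ∈ range (q + 1), t.choose s * R.choose (d - s) : ℕ) : ℝ)
      ≤ (q + 1) * ((t : ℝ) ^ q * E) := hsum
    _ ≤ Real.exp q * (Real.exp (q * l) * Real.exp (8 * r)) := by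
        rw [htq]
        apply mul_le_mul hq1 _ (by positivity) (Real.exp_pos _).le
        exact mul_le_mul_of_nonneg_left hE3 (Real.exp_pos _).le
    _ = Real.exp (q * (1 + l) + 8 * r) := by
        rw [← Real.exp_add, ← Real.exp_add]; congr 1; ring
    _ ≤ Real.exp (9300 * r) := by
        apply Real.exp_le_exp.2
        have : (q : ℝ) * (1 + l) ≤ (2 * l ^ 3 + 1) * (1 + l) :=
          mul_le_mul_of_nonneg_right hq3 (by linarith)
        linarith

/-- one size -/
theorem size_bound (h1 : StA1) (h2 : StA2) (V : Type) [Finite V] (G : SimpleGraph V)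
    (hG : C4Free G) (T : Finset V) (hT : ∀ x y, G.Adj x y → x ∈ T) (d : ℕ) (hd : d ≤ T.card)
    (ht0 : 1 ≤ T.card) (F : Finset (Finset V))
    (hF : ∀ I ∈ F, I ∈ T.powersetCard d ∧ (∀ x ∈ T, I.card ≤ {y | G.Adj x y}.ncard + 1) ∧
      ∀ x ∈ I, ∀ y ∈ I, x ≠ y → ¬ ∃ w, G.Adj w x ∧ G.Adj w y) :
    (F.card : ℝ) ≤ Real.exp (9300 * Real.sqrt T.card) := by
  classical
  have : Fintype V := Fintype.ofFinite V
  set t := T.card with ht
  have htr : (1 : ℝ) ≤ t := by exact_mod_cast ht0
  obtain ⟨-, hL⟩ := log_bound htr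
  have hl0 : 0 ≤ Real.log t := Real.log_nonneg htr
  have hr0 : 0 < Real.sqrt (t : ℝ) := Real.sqrt_pos.2 (by linarith)
  rcases F.eq_empty_or_nonempty with hFe | ⟨I0, hI0⟩
  · rw [hFe]; simp; positivity
  have hcard : (F.card : ℝ) ≤ Real.exp (d * Real.log t) := by
    have e1 : F.card ≤ t.choose d := by
      rw [ht, ← card_powersetCard]
      exact card_le_card fun I hI => (hF I hI).1
    calc (F.card : ℝ) ≤ (t : ℝ) ^ d := by exact_mod_cast e1.trans (Nat.choose_le_pow t d)
      _ = Real.exp (d * Real.log t) := by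
        rw [Real.exp_nat_mul, Real.exp_log (by linarith)]
  have hdeg : ∀ x ∈ T, d ≤ {y | G.Adj x y}.ncard + 1 := by
    intro x hx
    have := (hF I0 hI0).2.1 x hx
    rw [(mem_powersetCard.1 (hF I0 hI0).1).2] at this
    exact this
  by_cases hsmall : d ≤ 2 ∨ ((d - 1 : ℕ) : ℝ) * Real.log t ≤ Real.sqrt t
  · refine hcard.trans (Real.exp_le_exp.2 ?_)
    rcases hsmall with h | h
    · have : (d : ℝ) ≤ 2 := by exact_mod_cast h
      nlinarith
    · have h3 : (d : ℝ) ≤ ((d - 1 : ℕ) : ℝ) + 1 := by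
        have : d ≤ (d - 1) + 1 := by omega
        exact_mod_cast this
      nlinarith
  · rw [not_or, not_le, not_le] at hsmall
    obtain ⟨hd3, hlr⟩ := hsmall
    obtain ⟨δ, rfl⟩ : ∃ δ, d = δ + 1 := ⟨d - 1, by omega⟩
    have hδ2 : 2 ≤ δ := by omega
    rw [Nat.add_sub_cancel] at hlr
    have ht2 : 2 ≤ t := by omega
    have hTne : T.Nonempty := card_pos.1 (by omega)
    have hdeg' : ∀ x ∈ T, δ ≤ (univ.filter (fun y => G.Adj x y)).card := by
      intro x hx
      have e1 := hdeg x hx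
      have e2 : {y | G.Adj x y}.ncard = (univ.filter (fun y => G.Adj x y)).card := by
        rw [← Set.ncard_coe_finset]
        congr 1
        ext y; simp
      omega
    have hloc0 := h2 V G hG T hT δ (by omega) hdeg'
    have hδt : (δ : ℝ) ^ 2 ≤ 2 * t := by
      obtain ⟨x, hx, hx2⟩ := hloc0 T (Subset.refl T) (Nat.mul_le_mul_right _ hδ2) hTne
      have e1 : (δ : ℝ) ^ 2 / (2 * t) * t ≤ t := hx2.trans (by exact_mod_cast card_filter_le _ _)
      have e2 : (δ : ℝ) ^ 2 / (2 * t) * t = δ ^ 2 / 2 := by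
        field_simp
      rw [e2] at e1
      linarith
    set H : V → V → Prop := fun x y => x ≠ y ∧ ∃ w, G.Adj w x ∧ G.Adj w y with hH
    set b : ℝ := (δ : ℝ) ^ 2 / (2 * t) with hb
    set R : ℕ := 2 * t / δ with hR
    set q : ℕ := ⌈2 * t * Real.log t / (δ : ℝ) ^ 2⌉₊ with hq
    have hδ0 : (0 : ℝ) < δ := by exact_mod_cast (by omega : 0 < δ)
    have hb0 : 0 < b := by positivity
    have hb1 : b ≤ 1 := by rw [hb, div_le_one (by positivity)]; exact hδt
    have hqn : 0 ≤ 2 * t * Real.log t / (δ : ℝ) ^ 2 := by positivity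
    have hR1 : (1 : ℝ) ≤ R := by
      have : 1 ≤ R := by
        rw [hR, Nat.one_le_div_iff (by omega)]
        omega
      exact_mod_cast this
    have hRle : (R : ℝ) ≤ 2 * t / δ := by
      rw [le_div_iff₀ hδ0]
      exact_mod_cast Nat.div_mul_le_self _ _
    have hA1 := h1 V H (fun x y hxy => ⟨hxy.1.symm, hxy.2.imp fun w hw => ⟨hw.2, hw.1⟩⟩) b R
      hb0.le hb1 T (fun B' hB' hRB => by
        have hBne : B'.Nonempty := card_pos.1 (Nat.lt_of_le_of_lt (Nat.zero_le _) hRB)
        have e1 : 2 * t ≤ δ * B'.card := by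
          have e3 : 2 * t < δ * (R + 1) := by
            rw [hR]
            exact Nat.lt_mul_div_succ _ (by omega)
          have e4 : δ * (R + 1) ≤ δ * B'.card := Nat.mul_le_mul_left _ hRB
          omega
        obtain ⟨x, hx, hx2⟩ := hloc0 B' hB' e1 hBne
        refine ⟨x, hx, ?_⟩
        convert hx2 using 3) q (δ + 1) (by
        have e1 : (1 - b) ^ q ≤ Real.exp (-(b * q)) := by
          calc (1 - b) ^ q ≤ (Real.exp (-b)) ^ q := by
                apply pow_le_pow_left₀ (by linarith)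
                linarith [Real.add_one_le_exp (-b)]
            _ = _ := by rw [← Real.exp_nat_mul]; congr 1; ring
        have e2 : Real.log t ≤ b * q := by
          have e3 : 2 * t * Real.log t / (δ : ℝ) ^ 2 ≤ q := Nat.le_ceil _
          calc Real.log t = b * (2 * t * Real.log t / (δ : ℝ) ^ 2) := by
                rw [hb]; field_simp
            _ ≤ b * q := mul_le_mul_of_nonneg_left e3 hb0.le
        calc (1 - b) ^ q * (t : ℝ) ≤ Real.exp (-(b * q)) * t :=
              mul_le_mul_of_nonneg_right e1 (by linarith)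
          _ ≤ Real.exp (-Real.log t) * t := by
              apply mul_le_mul_of_nonneg_right _ (by linarith)
              apply Real.exp_le_exp.2; linarith
          _ = 1 := by
              rw [Real.exp_neg, Real.exp_log (by linarith)]
              field_simp
          _ ≤ R := hR1)
    have hFle : F.card ≤ ∑ s ∈ range (q + 1), t.choose s * R.choose (δ + 1 - s) := by
      refine le_trans (card_le_card ?_) hA1
      intro I hI
      simp only [Finset.mem_filter]
      exact ⟨(hF I hI).1, fun x hx y hy hxy hh => (hF I hI).2.2 x hx y hy hxy hh.2⟩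
    refine le_trans (by exact_mod_cast hFle) (num ht2 hδ2 rfl hδt hlr.le hRle ?_)
    have := Nat.ceil_lt_add_one hqn
    exact this.le

/-- Row A. -/
theorem rowA (h1 : StA1) (h2 : StA2) : StA := by
  classical
  refine ⟨9302, by norm_num, fun V _ G hG T hT => ?_⟩
  rw [← Real.sqrt_eq_rpow]
  set t := T.card with ht
  set P : Finset V → Prop := fun I => (∀ x ∈ T, I.card ≤ {y | G.Adj x y}.ncard + 1) ∧
      ∀ x ∈ I, ∀ y ∈ I, x ≠ y → ¬ ∃ w, G.Adj w x ∧ G.Adj w y with hP
  have hset : nbhds G T = ((T.powerset.filter P : Finset (Finset V)) : Set (Finset V)) := by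
    ext I
    rw [mem_coe, mem_filter, mem_powerset]
    exact Iff.rfl
  rw [hset, Set.ncard_coe_finset]
  rcases Nat.eq_zero_or_pos t with h0 | h0
  · have hTe : T = ∅ := card_eq_zero.1 h0
    have : (T.powerset.filter P).card ≤ 1 := by
      refine (card_filter_le _ _).trans ?_
      rw [card_powerset, ← ht, h0]; norm_num
    have h3 : ((T.powerset.filter P).card : ℝ) ≤ 1 := by exact_mod_cast this
    refine h3.trans ?_
    rw [h0]; simp
  · have hsub : T.powerset.filter P ⊆
        (range (t + 1)).biUnion (fun d => (T.powersetCard d).filter P) := by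
      intro I hI
      rw [mem_filter, mem_powerset] at hI
      rw [mem_biUnion]
      refine ⟨I.card, mem_range.2 (Nat.lt_succ_of_le (card_le_card hI.1)), ?_⟩
      rw [mem_filter, mem_powersetCard]
      exact ⟨⟨hI.1, rfl⟩, hI.2⟩
    have hcard := (card_le_card hsub).trans card_biUnion_le
    have hreal : ((T.powerset.filter P).card : ℝ) ≤
        ∑ d ∈ range (t + 1), (((T.powersetCard d).filter P).card : ℝ) := by
      exact_mod_cast hcard
    refine hreal.trans ?_
    calc ∑ d ∈ range (t + 1), (((T.powersetCard d).filter P).card : ℝ)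
        ≤ ∑ _d ∈ range (t + 1), Real.exp (9300 * Real.sqrt t) :=
          Finset.sum_le_sum fun d hd => size_bound h1 h2 V G hG T hT d
            (Nat.lt_succ_iff.1 (mem_range.1 hd)) h0 _ fun I hI => mem_filter.1 hI
      _ = (t + 1) * Real.exp (9300 * Real.sqrt t) := by
          rw [Finset.sum_const, card_range, nsmul_eq_mul]; push_cast; ring
      _ ≤ Real.exp (2 * Real.sqrt t) * Real.exp (9300 * Real.sqrt t) := by
          apply mul_le_mul_of_nonneg_right _ (Real.exp_pos _).le
          have hs : Real.sqrt (t : ℝ) ^ 2 = t := Real.sq_sqrt (Nat.cast_nonneg _)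
          have hs0 : 0 ≤ Real.sqrt (t : ℝ) := Real.sqrt_nonneg _
          calc (t : ℝ) + 1 ≤ (Real.sqrt t + 1) ^ 2 := by nlinarith
            _ ≤ (Real.exp (Real.sqrt t)) ^ 2 :=
                pow_le_pow_left₀ (by positivity) (Real.add_one_le_exp _) 2
            _ = Real.exp (2 * Real.sqrt t) := by rw [← Real.exp_nat_mul]; norm_num
      _ = Real.exp (9302 * Real.sqrt t) := by rw [← Real.exp_add]; congr 1; ring

end Vale.Agent.P183.R2.H538.KWA
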